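import Mathlib

/-! The one-variable estimates. -/

namespace Vale.Agent.P210H

open Filter Set Topology

/-- The data of the differential inequality on `(0, ∞)`. -/
structure Ineq (A B h A' B' h' : ℝ → ℝ) (c : ℝ) : Prop where
  pA : ∀ t, 0 < t → 0 < A t
  pB : ∀ t, 0 < t → 0 < B t
  dA : ∀ t, 0 < t → HasDerivAt A (A' t) t
  dB : ∀ t, 0 < t → HasDerivAt B (B' t) t
  dh : ∀ t, 0 < t → HasDerivAt h (h' t) t
  key : ∀ t, 0 < t → 4 * t * h' t - 2 * h t * (1 + t * A' t / A t) ≤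
    c * A t / B t - t * A t - h t ^ 2 - 3 * (1 + t * B' t / B t) ^ 2

variable {A B h A' B' h' : ℝ → ℝ} {c K : ℝ}

theorem Ineq.dy (I : Ineq A B h A' B' h' c) (hK : 3 * c < 2 * K ^ 2) {t : ℝ} (ht : 0 < t) :
    ∃ y', HasDerivAt (fun t => h t * √(B t) / √(A t)) y' t ∧
      (K ^ 2 ≤ (h t * √(B t) / √(A t)) ^ 2 → y' < 0) := by
  have hA := I.pA t ht
  have hB := I.pB t ht
  have ha := Real.sqrt_pos.2 hA
  have hb := Real.sqrt_pos.2 hB
  refine ⟨_, ((I.dh t ht).mul ((I.dB t ht).sqrt hB.ne')).div ((I.dA t ht).sqrt hA.ne') ha.ne',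
    fun hy => ?_⟩
  have key := I.key t ht
  simp only [Pi.mul_apply]
  generalize A' t = A1 at *
  generalize B' t = B1 at *
  generalize h' t = h1 at *
  generalize h t = h0 at *
  have eA : A t = √(A t) ^ 2 := (Real.sq_sqrt hA.le).symm
  have eB : B t = √(B t) ^ 2 := (Real.sq_sqrt hB.le).symm
  generalize √(A t) = a at *
  generalize √(B t) = b at *
  rw [eA, eB] at key
  have e : ((h1 * b + h0 * (B1 / (2 * b))) * a - h0 * b * (A1 / (2 * a))) / a ^ 2 =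
      (b / a) / (4 * t) * (4 * t * h1 - 2 * h0 * (1 + t * A1 / a ^ 2)
        + 2 * h0 * (1 + t * B1 / b ^ 2)) := by
    field_simp
    ring
  rw [e]
  refine mul_neg_of_pos_of_neg (by positivity) ?_
  generalize 1 + t * B1 / b ^ 2 = l at *
  have h2 : K ^ 2 * (a ^ 2 / b ^ 2) ≤ h0 ^ 2 := by
    have : h0 ^ 2 = (h0 * b / a) ^ 2 * (a ^ 2 / b ^ 2) := by field_simp
    rw [this]
    exact mul_le_mul_of_nonneg_right hy (by positivity)
  have h3 : 3 * c * (a ^ 2 / b ^ 2) < 2 * K ^ 2 * (a ^ 2 / b ^ 2) :=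
    mul_lt_mul_of_pos_right hK (by positivity)
  rw [mul_div_assoc c] at key
  have h4 : 0 < t * a ^ 2 := by positivity
  nlinarith [sq_nonneg (h0 - 3 * l)]

/-- Barrier. -/
theorem barrier {y : ℝ → ℝ} {t0 L : ℝ} (hc : ContinuousOn y (Ici t0)) (h0 : y t0 < L)
    (hd : ∀ t, t0 < t → ∃ y', HasDerivAt y y' t ∧ (y t = L → y' < 0)) :
    ∀ t, t0 ≤ t → y t ≤ L := by
  intro t ht
  by_contra hcon
  push Not at hcon
  have hev : ∀ᶠ s in 𝓝[Ici t0] t0, y s < L := (hc t0 self_mem_Ici).eventually_lt_const h0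
  have hlt : t0 < t := lt_of_le_of_ne ht (by rintro rfl; linarith)
  obtain ⟨s, ⟨hs1, hs2⟩, hs3⟩ : ∃ s, (y s < L ∧ s < t) ∧ s ∈ Ioi t0 := by
    have h1 : ∀ᶠ s in 𝓝[>] t0, y s < L := nhdsWithin_mono _ Ioi_subset_Ici_self hev
    have h2 : ∀ᶠ s in 𝓝[>] t0, s < t := mem_nhdsWithin_of_mem_nhds (Iio_mem_nhds hlt)
    exact ((h1.and h2).and self_mem_nhdsWithin).exists
  choose! y' hy1 hy2 using hd
  have := image_le_of_deriv_right_lt_deriv_boundary (f := y) (f' := y') (a := s) (b := t)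
    (hc.mono fun x hx => le_trans (le_of_lt hs3) hx.1)
    (fun x hx => (hy1 x (lt_of_lt_of_le hs3 hx.1)).hasDerivWithinAt) (B := fun _ => L)
    (B' := fun _ => 0) hs1.le (fun x => hasDerivAt_const x L)
    (fun x hx he => hy2 x (lt_of_lt_of_le hs3 hx.1) he) (x := t) ⟨hs2.le, le_rfl⟩
  linarith

theorem Ineq.upper (I : Ineq A B h A' B' h' c) (hK : 3 * c < 2 * K ^ 2)
    (hc : ContinuousOn (fun t => h t * √(B t) / √(A t)) (Ici 0))
    (h0 : h 0 * √(B 0) / √(A 0) < K) : ∀ t, 0 ≤ t → h t * √(B t) / √(A t) ≤ K := by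
  refine barrier hc h0 fun t ht => ?_
  obtain ⟨y', h1, h2⟩ := I.dy hK ht
  exact ⟨y', h1, fun e => h2 (by rw [e])⟩

theorem Ineq.dG (I : Ineq A B h A' B' h' c) (hK : 3 * c < 2 * K ^ 2) {s : ℝ} (hs : 0 < s)
    (hK0 : 0 < K) (hy : K ^ 2 ≤ (h (s ^ 2) * √(B (s ^ 2)) / √(A (s ^ 2))) ^ 2) :
    ∃ G', HasDerivAt (fun s => 6 * (s * √(A (s ^ 2)) / h (s ^ 2))) G' s ∧ √(A (s ^ 2)) ≤ G' := by
  have ht : 0 < s ^ 2 := by positivity
  have hA := I.pA _ ht
  have hB := I.pB _ ht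
  have ha := Real.sqrt_pos.2 hA
  have hb := Real.sqrt_pos.2 hB
  have hh : h (s ^ 2) ≠ 0 := fun e => by
    rw [e] at hy
    simp only [zero_mul, zero_div] at hy
    nlinarith
  have d2 : HasDerivAt (fun s : ℝ => s ^ 2) (2 * s) s := by simpa using hasDerivAt_pow 2 s
  have dA : HasDerivAt (fun s : ℝ => A (s ^ 2)) (A' (s ^ 2) * (2 * s)) s :=
    HasDerivAt.comp (h := fun s : ℝ => s ^ 2) s (I.dA _ ht) d2
  have dh : HasDerivAt (fun s : ℝ => h (s ^ 2)) (h' (s ^ 2) * (2 * s)) s :=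
    HasDerivAt.comp (h := fun s : ℝ => s ^ 2) s (I.dh _ ht) d2
  refine ⟨_, ((((hasDerivAt_id' s).mul (dA.sqrt hA.ne')).div dh hh).const_mul 6), ?_⟩
  have key := I.key _ ht
  simp only [Pi.mul_apply]
  generalize A' (s ^ 2) = A1 at *
  generalize B' (s ^ 2) = B1 at *
  generalize h' (s ^ 2) = h1 at *
  generalize h (s ^ 2) = h0 at *
  have eA : A (s ^ 2) = √(A (s ^ 2)) ^ 2 := (Real.sq_sqrt hA.le).symm
  have eB : B (s ^ 2) = √(B (s ^ 2)) ^ 2 := (Real.sq_sqrt hB.le).symm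
  generalize √(A (s ^ 2)) = a at *
  generalize √(B (s ^ 2)) = b at *
  rw [eA, eB] at key
  have e : 6 * (((1 * a + s * (A1 * (2 * s) / (2 * a))) * h0 - s * a * (h1 * (2 * s))) / h0 ^ 2) =
      a + a / h0 ^ 2 * (-3 * (4 * s ^ 2 * h1 - 2 * h0 * (1 + s ^ 2 * A1 / a ^ 2)) - h0 ^ 2) := by
    field_simp
    ring
  rw [e]
  refine le_add_of_nonneg_right (mul_nonneg (by positivity) ?_)
  have h2 : K ^ 2 * (a ^ 2 / b ^ 2) ≤ h0 ^ 2 := by
    have : h0 ^ 2 = (h0 * b / a) ^ 2 * (a ^ 2 / b ^ 2) := by field_simp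
    rw [this]
    exact mul_le_mul_of_nonneg_right hy (by positivity)
  have h3 : 3 * c * (a ^ 2 / b ^ 2) < 2 * K ^ 2 * (a ^ 2 / b ^ 2) :=
    mul_lt_mul_of_pos_right hK (by positivity)
  rw [mul_div_assoc c] at key
  have h4 : 0 < s ^ 2 * a ^ 2 := by positivity
  nlinarith [sq_nonneg (1 + s ^ 2 * B1 / b ^ 2)]

theorem Ineq.lower (I : Ineq A B h A' B' h' c) (hK : 3 * c < 2 * K ^ 2) (hK0 : 0 < K)
    (hcomp : ∀ s0, 0 < s0 → ∀ M : ℝ, ∃ s, s0 ≤ s ∧ M < ∫ u in s0..s, √(A (u ^ 2))) :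
    ∀ t, 0 < t → -K ≤ h t * √(B t) / √(A t) := by
  intro t0 ht0
  by_contra hcon
  push Not at hcon
  have hb := barrier (y := fun t => h t * √(B t) / √(A t)) (t0 := t0) (L := -K)
    (fun t ht => by
      obtain ⟨y', h1, -⟩ := I.dy hK (lt_of_lt_of_le ht0 ht)
      exact h1.continuousAt.continuousWithinAt) hcon
    (fun t ht => by
      obtain ⟨y', h1, h2⟩ := I.dy hK (ht0.trans ht)
      exact ⟨y', h1, fun e => h2 (by rw [e, neg_sq])⟩)
  have hs0 : 0 < √t0 := Real.sqrt_pos.2 ht0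
  have hb2 : ∀ s, √t0 ≤ s → h (s ^ 2) * √(B (s ^ 2)) / √(A (s ^ 2)) ≤ -K := fun s hs =>
    hb _ (by nlinarith [Real.sq_sqrt ht0.le])
  have hG : ∀ s, √t0 ≤ s → ∃ G', HasDerivAt (fun s => 6 * (s * √(A (s ^ 2)) / h (s ^ 2))) G' s ∧
      √(A (s ^ 2)) ≤ G' := fun s hs =>
    I.dG hK (lt_of_lt_of_le hs0 hs) hK0 (by nlinarith [hb2 s hs])
  choose! G' hG1 hG2 using hG
  obtain ⟨s, hs, hM⟩ := hcomp _ hs0 (-(6 * (√t0 * √(A (√t0 ^ 2)) / h (√t0 ^ 2))))
  have hcA : ContinuousOn (fun u => √(A (u ^ 2))) (Icc √t0 s) := fun u hu => by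
    have hu0 : 0 < u := lt_of_lt_of_le hs0 hu.1
    have : ContinuousAt (fun u : ℝ => A (u ^ 2)) u :=
      ContinuousAt.comp (f := fun u : ℝ => u ^ 2) (I.dA _ (by positivity)).continuousAt
        (by fun_prop)
    exact this.sqrt.continuousWithinAt
  have := intervalIntegral.integral_le_sub_of_hasDeriv_right_of_le hs
    (g := fun s => 6 * (s * √(A (s ^ 2)) / h (s ^ 2))) (g' := G')
    (fun u hu => (hG1 u hu.1).continuousAt.continuousWithinAt)
    (fun u hu => (hG1 u hu.1.le).hasDerivWithinAt) hcA.integrableOn_Icc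
    (fun u hu => hG2 u hu.1.le)
  have hs1 : 0 < s := lt_of_lt_of_le hs0 hs
  have hneg : h (s ^ 2) < 0 := by
    by_contra hn
    push Not at hn
    have := hb2 s hs
    have h2 : 0 ≤ h (s ^ 2) * √(B (s ^ 2)) / √(A (s ^ 2)) := by positivity
    linarith
  have : s * √(A (s ^ 2)) / h (s ^ 2) ≤ 0 :=
    div_nonpos_of_nonneg_of_nonpos (by positivity) hneg.le
  linarith

theorem Ineq.dz (I : Ineq A B h A' B' h' c) {t : ℝ} (ht : 0 < t) :
    ∃ z', HasDerivAt (fun t => h t / √(t * A t) + Real.log (t * B t) / 2) z' t ∧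
      (2 * c ≤ t * B t → z' ≤ 0) := by
  have hA := I.pA t ht
  have hB := I.pB t ht
  have hA1 : 0 < t * A t := by positivity
  have hB1 : 0 < t * B t := by positivity
  have ha := Real.sqrt_pos.2 hA1
  have d1 : HasDerivAt (fun t => t * A t) (1 * A t + t * A' t) t :=
    (hasDerivAt_id' t).mul (I.dA t ht)
  have d2 : HasDerivAt (fun t => t * B t) (1 * B t + t * B' t) t :=
    (hasDerivAt_id' t).mul (I.dB t ht)
  refine ⟨_, ((I.dh t ht).div (d1.sqrt hA1.ne') ha.ne').add ((d2.log hB1.ne').div_const 2),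
    fun hy => ?_⟩
  have key := I.key t ht
  generalize A' t = A1 at *
  generalize B' t = B1 at *
  generalize h' t = h1 at *
  generalize h t = h0 at *
  have eA : A t = √(t * A t) ^ 2 / t := by rw [Real.sq_sqrt hA1.le]; field_simp
  generalize √(t * A t) = a at *
  generalize B t = b at *
  rw [eA] at key ⊢
  have e : (h1 * a - h0 * ((1 * (a ^ 2 / t) + t * A1) / (2 * a))) / a ^ 2
      + (1 * b + t * B1) / (t * b) / 2 = 1 / (4 * t * a) *
        (4 * t * h1 - 2 * h0 * (1 + t * A1 / (a ^ 2 / t)) + 2 * a * (1 + t * B1 / b)) := by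
    field_simp
    ring
  rw [e]
  refine mul_nonpos_of_nonneg_of_nonpos (by positivity) ?_
  generalize 1 + t * B1 / b = l at *
  have h2 : c * (a ^ 2 / t) / b ≤ a ^ 2 / 2 := by
    rw [div_le_div_iff₀ hB (by norm_num), mul_div_assoc', div_mul_eq_mul_div,
      div_le_iff₀ ht]
    nlinarith [sq_nonneg a]
  have h3 : t * (a ^ 2 / t) = a ^ 2 := by field_simp
  rw [h3] at key
  nlinarith [sq_nonneg (a - 3 * l), sq_nonneg h0, sq_nonneg a, sq_nonneg l]

theorem Ineq.Hle (I : Ineq A B h A' B' h' c) (hK0 : 0 < K) {t : ℝ} (ht : 0 < t)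
    (hy : |h t * √(B t) / √(A t)| ≤ K) (hF : 16 * K ^ 2 ≤ t * B t) :
    |h t / √(t * A t)| ≤ 1 / 4 := by
  have hA := I.pA t ht
  have hB := I.pB t ht
  have h1 : (h t * √(B t) / √(A t)) ^ 2 ≤ K ^ 2 := by
    rw [← sq_abs]; exact pow_le_pow_left₀ (abs_nonneg _) hy 2
  rw [div_pow, mul_pow, Real.sq_sqrt hA.le, Real.sq_sqrt hB.le, div_le_iff₀ hA] at h1
  apply abs_le_of_sq_le_sq' _ (by norm_num) |> abs_le.2
  rw [div_pow, Real.sq_sqrt (by positivity), div_le_iff₀ (by positivity)]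
  have : h t ^ 2 * (16 * K ^ 2) ≤ h t ^ 2 * (t * B t) :=
    mul_le_mul_of_nonneg_left hF (sq_nonneg _)
  have h2 : t * (h t ^ 2 * B t) ≤ t * (K ^ 2 * A t) := mul_le_mul_of_nonneg_left h1 ht.le
  have h3 : K ^ 2 * (16 * h t ^ 2) ≤ K ^ 2 * (t * A t) := by nlinarith
  have h4 := le_of_mul_le_mul_left h3 (by positivity)
  nlinarith

theorem Ineq.bound (I : Ineq A B h A' B' h' c) (hK : 3 * c < 2 * K ^ 2) (hK0 : 0 < K)
    (hy : ∀ t, 0 < t → |h t * √(B t) / √(A t)| ≤ K) {t0 t2 : ℝ} (h2 : 0 < t2) (h20 : t2 ≤ t0)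
    (hF : t2 * B t2 ≤ 16 * K ^ 2) : t0 * B t0 ≤ 64 * K ^ 2 := by
  by_contra hcon
  push Not at hcon
  have hcF : ∀ t, 0 < t → ContinuousAt (fun t => t * B t) t := fun t ht =>
    continuousAt_id.mul (I.dB t ht).continuousAt
  let S := Icc t2 t0 ∩ (fun t => t * B t) ⁻¹' Iic (16 * K ^ 2)
  have hS : IsClosed S := ContinuousOn.preimage_isClosed_of_isClosed
    (fun t ht => (hcF t (lt_of_lt_of_le h2 ht.1)).continuousWithinAt) isClosed_Icc isClosed_Iic
  have hbd : BddAbove S := ⟨t0, fun t ht => ht.1.2⟩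
  have hm := hS.csSup_mem ⟨t2, ⟨le_rfl, h20⟩, hF⟩ hbd
  have hup : ∀ t, sSup S < t → t ≤ t0 → 16 * K ^ 2 ≤ t * B t := fun t h1 h3 => by
    by_contra hn
    push Not at hn
    exact absurd (le_csSup hbd ⟨⟨hm.1.1.trans h1.le, h3⟩, hn.le⟩) (not_le.2 h1)
  generalize sSup S = t1 at hm hup
  obtain ⟨⟨h21, h10⟩, hF1⟩ := hm
  have hF1 : t1 * B t1 ≤ 16 * K ^ 2 := hF1
  have h1 : 0 < t1 := lt_of_lt_of_le h2 h21
  have hlt : t1 < t0 := lt_of_le_of_ne h10 (by rintro rfl; nlinarith [sq_nonneg K])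
  have hF2 : 16 * K ^ 2 ≤ t1 * B t1 := by
    refine ge_of_tendsto ((hcF t1 h1).tendsto.mono_left (nhdsWithin_le_nhds (s := Ioi t1))) ?_
    filter_upwards [Ioo_mem_nhdsGT hlt] with t ht using hup t ht.1 ht.2.le
  have hz := fun t (ht : 0 < t) => I.dz ht
  choose! z' hz1 hz2 using hz
  have hanti := antitoneOn_of_deriv_nonpos (convex_Icc t1 t0)
    (f := fun t => h t / √(t * A t) + Real.log (t * B t) / 2)
    (fun t ht => (hz1 t (lt_of_lt_of_le h1 ht.1)).continuousAt.continuousWithinAt)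
    (fun t ht => by
      rw [interior_Icc] at ht
      exact (hz1 t (h1.trans ht.1)).differentiableAt.differentiableWithinAt)
    (fun t ht => by
      rw [interior_Icc] at ht
      rw [(hz1 t (h1.trans ht.1)).deriv]
      exact hz2 t (h1.trans ht.1) (by nlinarith [hup t ht.1 ht.2.le, sq_nonneg K]))
    ⟨le_rfl, h10⟩ ⟨h10, le_rfl⟩ h10
  have e1 := abs_le.1 (I.Hle hK0 h1 (hy t1 h1) hF2)
  have e0 := abs_le.1 (I.Hle hK0 (h1.trans hlt) (hy t0 (h1.trans hlt)) (by nlinarith [sq_nonneg K]))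
  have l1 : Real.log (t1 * B t1) ≤ Real.log (16 * K ^ 2) :=
    Real.log_le_log (by have := I.pB t1 h1; positivity) hF1
  have l0 : Real.log (2 * 2 * (16 * K ^ 2)) ≤ Real.log (t0 * B t0) :=
    Real.log_le_log (by positivity) (by linarith)
  rw [Real.log_mul (by norm_num) (by positivity), Real.log_mul (by norm_num) (by norm_num)] at l0
  have := Real.log_two_gt_d9
  simp only at hanti
  linarith

end Vale.Agent.P210H
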